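import Vale.Agent.P141.Defs

namespace Vale.Agent.P141

open MeasureTheory Filter Topology Set
open scoped Manifold ContDiff

/-- closed quarter-neighbourhood of a finite set of reals -/
def Kset (S : Finset ℝ) : Set ℝ := ⋃ s ∈ S, Icc (s - 1/4) (s + 1/4)

/-- open half-neighbourhood of a finite set of reals -/
def Uset (S : Finset ℝ) : Set ℝ := ⋃ s ∈ S, Ioo (s - 1/2) (s + 1/2)

lemma Kset_closed (S : Finset ℝ) : IsClosed (Kset S) :=
  S.finite_toSet.isClosed_biUnion fun _ _ => isClosed_Icc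

lemma Uset_open (S : Finset ℝ) : IsOpen (Uset S) :=
  isOpen_biUnion fun _ _ => isOpen_Ioo

lemma Kset_sub_Uset (S : Finset ℝ) : Kset S ⊆ Uset S := by
  intro x hx
  simp only [Kset, Uset, mem_iUnion, mem_Icc, mem_Ioo] at hx ⊢
  obtain ⟨s, hs, h1, h2⟩ := hx
  exact ⟨s, hs, by linarith, by linarith⟩

lemma Uset_volume_le (S : Finset ℝ) : volume (Uset S) ≤ (S.card : ENNReal) := by
  calc volume (Uset S) ≤ ∑ s ∈ S, volume (Ioo (s - 1/2) (s + 1/2)) :=
        measure_biUnion_finset_le S _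
    _ = ∑ s ∈ S, (1 : ENNReal) := by
        refine Finset.sum_congr rfl fun s _ => ?_
        rw [Real.volume_Ioo]
        have : s + 1/2 - (s - 1/2) = 1 := by ring
        rw [this]; simp
    _ = (S.card : ENNReal) := by simp

lemma Uset_bounded (S : Finset ℝ) : Bornology.IsBounded (Uset S) := by
  unfold Uset
  exact (Bornology.isBounded_biUnion S.finite_toSet).2 fun s _ => Metric.isBounded_Ioo _ _

/-- A Schwartz function which is a smooth version of the indicator of a neighbourhood of `S`. -/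
lemma exists_bump (S : Finset ℝ) :
    ∃ (f : SchwartzMap ℝ ℂ) (g : ℝ → ℝ), (∀ x, f x = (g x : ℂ)) ∧ Continuous g ∧
      (∀ x, 0 ≤ g x) ∧ (∀ x, g x ≤ 1) ∧ (∀ x ∈ Kset S, g x = 1) ∧ (∀ x, x ∉ Uset S → g x = 0) := by
  have hd : Disjoint (Uset S)ᶜ (Kset S) := by
    rw [Set.disjoint_left]
    intro x hx hx'
    exact hx (Kset_sub_Uset S hx')
  obtain ⟨g, hg0, hg1, hg01⟩ := exists_contMDiffMap_zero_one_of_isClosed (n := ⊤) (𝓘(ℝ, ℝ))
    (Uset_open S).isClosed_compl (Kset_closed S) hd
  have hgs : ContDiff ℝ (⊤ : ℕ∞) (g : ℝ → ℝ) := g.contMDiff.contDiff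
  have hsupp : HasCompactSupport (fun x => ((g x : ℝ) : ℂ)) := by
    apply HasCompactSupport.of_support_subset_isCompact (K := closure (Uset S))
    · exact (Uset_bounded S).isCompact_closure
    · intro x hx
      apply subset_closure
      by_contra hxU
      apply hx
      have := hg0 hxU
      simp at this
      simp [this]
  have hsm : ContDiff ℝ (⊤ : ℕ∞) (fun x => ((g x : ℝ) : ℂ)) :=
    Complex.ofRealCLM.contDiff.comp hgs
  refine ⟨hsupp.toSchwartzMap hsm, g, fun x => rfl, hgs.continuous, fun x => (hg01 x).1,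
    fun x => (hg01 x).2, fun x hx => hg1 hx, fun x hx => hg0 hx⟩

end Vale.Agent.P141
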