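import Vale.Agent.P141.Criterion

namespace Vale.Agent.P141

/-- the 14-point configuration -/
def P14 : Finset (ℤ × ℤ) :=
  {(0, 0), (-1, -1), (-2, -2), (4, 2), (3, 1), (2, 0), (1, -1), (8, 4), (7, 3), (6, 2), (5, 1),
    (11, 5), (10, 4), (9, 3)}

lemma P14_card : P14.card = 14 := by decide
lemma P14_d1 : (P14.image fun w => w.1 - 1 * w.2).card = 4 := by decide
lemma P14_d2 : (P14.image fun w => w.1 - 2 * w.2).card = 4 := by decide
lemma P14_d3 : (P14.image fun w => w.1 - 3 * w.2).card = 5 := by decide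
lemma P14_inj : ∀ a ∈ P14, ∀ a' ∈ P14, ((14 : ℕ) : ℤ) ∣ a.1 - a'.1 → a = a' := by decide

/-- 8-point configuration, grid in the first two projections -/
def P8a : Finset (ℤ × ℤ) :=
  {(0, 0), (-1, -1), (-2, -2), (-3, -3), (4, 2), (3, 1), (2, 0), (1, -1)}

lemma P8a_card : P8a.card = 8 := by decide
lemma P8a_d1 : (P8a.image fun w => w.1 - 1 * w.2).card = 2 := by decide
lemma P8a_d2 : (P8a.image fun w => w.1 - 2 * w.2).card = 4 := by decide
lemma P8a_d3 : (P8a.image fun w => w.1 - 3 * w.2).card = 5 := by decide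
lemma P8a_inj : ∀ a ∈ P8a, ∀ a' ∈ P8a, ((8 : ℕ) : ℤ) ∣ a.1 - a'.1 → a = a' := by decide

/-- 6-point configuration, grid in the first and third projections -/
def P6 : Finset (ℤ × ℤ) :=
  {(0, 0), (-1, -1), (-2, -2), (3, 1), (2, 0), (1, -1)}

lemma P6_card : P6.card = 6 := by decide
lemma P6_d1 : (P6.image fun w => w.1 - 1 * w.2).card = 2 := by decide
lemma P6_d2 : (P6.image fun w => w.1 - 2 * w.2).card = 4 := by decide
lemma P6_d3 : (P6.image fun w => w.1 - 3 * w.2).card = 3 := by decide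
lemma P6_inj : ∀ a ∈ P6, ∀ a' ∈ P6, ((6 : ℕ) : ℤ) ∣ a.1 - a'.1 → a = a' := by decide

/-- 8-point configuration, grid in the last two projections -/
def P8b : Finset (ℤ × ℤ) :=
  {(0, 0), (3, 1), (6, 2), (9, 3), (-4, -2), (-1, -1), (2, 0), (5, 1)}

lemma P8b_card : P8b.card = 8 := by decide
lemma P8b_d1 : (P8b.image fun w => w.1 - 1 * w.2).card = 5 := by decide
lemma P8b_d2 : (P8b.image fun w => w.1 - 2 * w.2).card = 4 := by decide
lemma P8b_d3 : (P8b.image fun w => w.1 - 3 * w.2).card = 2 := by decide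
lemma P8b_inj : ∀ a ∈ P8b, ∀ a' ∈ P8b, ((8 : ℕ) : ℤ) ∣ a.1 - a'.1 → a = a' := by decide

end Vale.Agent.P141
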