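import Mathlib

namespace Vale.Agent.P141

/-- The set of pairs `(x, t)` whose base-`B` digit pairs all lie in the configuration `P`
(`n` digits). -/
def digitSet (P : Finset (ℤ × ℤ)) (B : ℤ) : ℕ → Finset (ℤ × ℤ)
  | 0 => {(0, 0)}
  | n + 1 => Finset.image₂ (fun a w => (a.1 + B * w.1, a.2 + B * w.2)) P (digitSet P B n)

variable {P : Finset (ℤ × ℤ)} {B : ℤ}

lemma digitSet_inj_card (hB : B ≠ 0)
    (hinj : ∀ a ∈ P, ∀ b ∈ P, B ∣ a.1 - b.1 → a = b) (n : ℕ) :
    Set.InjOn Prod.fst (digitSet P B n : Set (ℤ × ℤ)) ∧ (digitSet P B n).card = P.card ^ n := by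
  induction n with
  | zero => simp [digitSet]
  | succ n ih =>
    obtain ⟨ih1, ih2⟩ := ih
    have key : ∀ a ∈ P, ∀ w ∈ digitSet P B n, ∀ a' ∈ P, ∀ w' ∈ digitSet P B n,
        a.1 + B * w.1 = a'.1 + B * w'.1 → a = a' ∧ w = w' := by
      intro a ha w hw a' ha' w' hw' h
      have h1 : a = a' := by
        apply hinj a ha a' ha'
        exact ⟨w'.1 - w.1, by linarith⟩
      subst h1
      have h2 : B * (w.1 - w'.1) = 0 := by linarith
      have h3 : w.1 = w'.1 := by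
        rcases mul_eq_zero.1 h2 with h | h
        · exact absurd h hB
        · linarith
      exact ⟨rfl, ih1 hw hw' h3⟩
    constructor
    · intro z hz z' hz' h
      simp only [digitSet, Finset.coe_image₂, Set.mem_image2, Finset.mem_coe] at hz hz'
      obtain ⟨a, ha, w, hw, rfl⟩ := hz
      obtain ⟨a', ha', w', hw', rfl⟩ := hz'
      obtain ⟨rfl, rfl⟩ := key a ha w hw a' ha' w' hw' h
      rfl
    · simp only [digitSet]
      rw [Finset.card_image₂_iff.2, ih2, pow_succ, mul_comm]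
      intro z hz z' hz' h
      rw [Set.mem_prod] at hz hz'
      have h1 := congrArg Prod.fst h
      obtain ⟨e1, e2⟩ := key z.1 hz.1 z.2 hz.2 z'.1 hz'.1 z'.2 hz'.2 h1
      exact Prod.ext e1 e2

lemma digitSet_proj_card (i : ℤ) (n : ℕ) :
    ((digitSet P B n).image fun w => w.1 - i * w.2).card ≤
      (P.image fun w => w.1 - i * w.2).card ^ n := by
  induction n with
  | zero => simp [digitSet]
  | succ n ih =>
    have hsub : ((digitSet P B (n + 1)).image fun w => w.1 - i * w.2) ⊆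
        Finset.image₂ (fun d s => d + B * s) (P.image fun w => w.1 - i * w.2)
          ((digitSet P B n).image fun w => w.1 - i * w.2) := by
      intro z hz
      simp only [digitSet, Finset.mem_image, Finset.mem_image₂] at hz
      obtain ⟨_, ⟨a, ha, w, hw, rfl⟩, rfl⟩ := hz
      rw [Finset.mem_image₂]
      exact ⟨_, Finset.mem_image_of_mem _ ha, _, Finset.mem_image_of_mem _ hw, by ring⟩
    calc _ ≤ _ := Finset.card_le_card hsub
      _ ≤ _ := Finset.card_image₂_le _ _ _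
      _ ≤ (P.image fun w => w.1 - i * w.2).card * (P.image fun w => w.1 - i * w.2).card ^ n :=
          Nat.mul_le_mul_left _ ih
      _ = _ := by rw [pow_succ, mul_comm]

lemma digitSet_bound (c : ℕ) (b : ℕ) (hb : 2 ≤ b) (hB : B = b)
    (hc : ∀ a ∈ P, |a.1| ≤ (c : ℤ) ∧ |a.2| ≤ (c : ℤ)) (n : ℕ) :
    ∀ w ∈ digitSet P B n, |w.1| + c ≤ (c : ℤ) * (b : ℤ) ^ n ∧ |w.2| + c ≤ (c : ℤ) * (b : ℤ) ^ n := by
  induction n with
  | zero =>
    intro w hw
    simp only [digitSet, Finset.mem_singleton] at hw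
    subst hw
    simp
  | succ n ih =>
    intro z hz
    simp only [digitSet, Finset.mem_image₂] at hz
    obtain ⟨a, ha, w, hw, rfl⟩ := hz
    obtain ⟨h1, h2⟩ := ih w hw
    obtain ⟨k1, k2⟩ := hc a ha
    have hb' : (2 : ℤ) ≤ (b : ℤ) := by exact_mod_cast hb
    have hc0 : (0 : ℤ) ≤ (c : ℤ) := Int.natCast_nonneg c
    subst hB
    have gen : ∀ u v : ℤ, |u| ≤ (c : ℤ) → |v| + c ≤ (c : ℤ) * (b : ℤ) ^ n →
        |u + (b : ℤ) * v| + c ≤ (c : ℤ) * (b : ℤ) ^ (n + 1) := by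
      intro u v hu hv
      have t1 : |u + (b : ℤ) * v| ≤ |u| + (b : ℤ) * |v| := by
        calc |u + (b : ℤ) * v| ≤ |u| + |(b : ℤ) * v| := abs_add_le _ _
          _ = |u| + (b : ℤ) * |v| := by rw [abs_mul, abs_of_nonneg (by omega : (0 : ℤ) ≤ (b : ℤ))]
      have t2 : (b : ℤ) * (|v| + c) ≤ (b : ℤ) * ((c : ℤ) * (b : ℤ) ^ n) :=
        mul_le_mul_of_nonneg_left hv (by omega)
      have t3 : (c : ℤ) * (b : ℤ) ^ (n + 1) = (b : ℤ) * ((c : ℤ) * (b : ℤ) ^ n) := by ring
      rw [t3]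
      nlinarith
    exact ⟨gen _ _ k1 h1, gen _ _ k2 h2⟩

end Vale.Agent.P141
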