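import Vale.Agent.P141.KeyIneq
import Vale.Agent.P141.Digits

namespace Vale.Agent.P141

open MeasureTheory Filter Topology Set

lemma natCast_rpow_eq (b : ℕ) {s : ℝ} (hs : 0 ≤ s) :
    (b : ENNReal) ^ s = ENNReal.ofReal ((b : ℝ) ^ s) := by
  rw [← ENNReal.ofReal_rpow_of_nonneg (Nat.cast_nonneg b) hs, ENNReal.ofReal_natCast]

lemma natCast_div_rpow_eq (a : ℕ) {s : ℝ} (hs : 0 ≤ s) :
    ((a : ENNReal) / 8) ^ s = ENNReal.ofReal (((a : ℝ) / 8) ^ s) := by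
  rw [← ENNReal.ofReal_rpow_of_nonneg (by positivity) hs,
    ENNReal.ofReal_div_of_pos (by norm_num), ENNReal.ofReal_natCast]
  congr 2
  simp

lemma ennreal_to_real {x C : ℝ} {a b₁ b₂ b₃ : ℕ} {s s₁ s₂ s₃ : ℝ}
    (hs : 0 ≤ s) (hs₁ : 0 ≤ s₁) (hs₂ : 0 ≤ s₂) (hs₃ : 0 ≤ s₃) (hx : 0 ≤ x)
    (h : ENNReal.ofReal x * ((a : ENNReal) / 8) ^ s ≤
      ENNReal.ofReal C * (b₁ : ENNReal) ^ s₁ * (b₂ : ENNReal) ^ s₂ * (b₃ : ENNReal) ^ s₃) :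
    x * ((a : ℝ) / 8) ^ s ≤ max C 0 * (b₁ : ℝ) ^ s₁ * (b₂ : ℝ) ^ s₂ * (b₃ : ℝ) ^ s₃ := by
  rw [natCast_rpow_eq b₁ hs₁, natCast_rpow_eq b₂ hs₂, natCast_rpow_eq b₃ hs₃,
    natCast_div_rpow_eq a hs] at h
  have hC : ENNReal.ofReal C = ENNReal.ofReal (max C 0) := by
    rcases le_total C 0 with h0 | h0
    · rw [max_eq_right h0, ENNReal.ofReal_of_nonpos h0, ENNReal.ofReal_zero]
    · rw [max_eq_left h0]
  rw [hC, ← ENNReal.ofReal_mul hx, ← ENNReal.ofReal_mul (le_max_right _ _),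
    ← ENNReal.ofReal_mul (by positivity), ← ENNReal.ofReal_mul (by positivity)] at h
  exact (ENNReal.ofReal_le_ofReal_iff (by positivity)).1 h

lemma pow_rpow_comm' {x : ℝ} (hx : 0 ≤ x) (n : ℕ) (y : ℝ) : (x ^ n) ^ y = (x ^ y) ^ n := by
  rw [← Real.rpow_natCast, ← Real.rpow_mul hx, mul_comm, Real.rpow_mul hx, Real.rpow_natCast]

lemma no_geometric_bound {a δ K : ℝ} (hδ : 0 ≤ δ) (hlt : δ < a)
    (h : ∀ n : ℕ, a ^ n ≤ K * δ ^ n) : False := by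
  have ha : 0 < a := hδ.trans_lt hlt
  have hy : δ / a < 1 := (div_lt_one ha).2 hlt
  have hK : 0 < K := by
    have := h 0
    simp at this
    linarith
  obtain ⟨n, hn⟩ := exists_pow_lt_of_lt_one (show (0 : ℝ) < 1 / K by positivity) hy
  have h1 := h n
  rw [div_pow, div_lt_div_iff₀ (by positivity) hK] at hn
  linarith

/-- **Tensor power criterion.**  Let `P` be a finite set of integer pairs `(x, t)` whose first
coordinates are pairwise incongruent modulo `b`.  If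
`b * |{x - t}|^(1/p₁) * |{x - 2t}|^(1/p₂) * |{x - 3t}|^(1/p₃) < |P|^(1/r)`
then the trilinear Hilbert transform is not bounded at `(p₁, p₂, p₃, r)`. -/
theorem criterion (P : Finset (ℤ × ℤ)) (b : ℕ) (hb : 2 ≤ b)
    (hinj : ∀ a ∈ P, ∀ a' ∈ P, (b : ℤ) ∣ a.1 - a'.1 → a = a')
    {p₁ p₂ p₃ r : ℝ} (hp₁ : 0 < p₁) (hp₂ : 0 < p₂) (hp₃ : 0 < p₃) (hr : 0 < r)
    (hgain : (b : ℝ) * ((P.image fun w => w.1 - 1 * w.2).card : ℝ) ^ (1 / p₁) *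
        ((P.image fun w => w.1 - 2 * w.2).card : ℝ) ^ (1 / p₂) *
        ((P.image fun w => w.1 - 3 * w.2).card : ℝ) ^ (1 / p₃) < (P.card : ℝ) ^ (1 / r)) :
    ¬ BoundedAt p₁ p₂ p₃ r := by
  rintro ⟨C, hC⟩
  set c : ℕ := P.sup (fun a => a.1.natAbs + a.2.natAbs) with hc
  have hcb : ∀ a ∈ P, |a.1| ≤ (c : ℤ) ∧ |a.2| ≤ (c : ℤ) := by
    intro a ha
    have h1 : a.1.natAbs + a.2.natAbs ≤ c := Finset.le_sup (f := fun a => a.1.natAbs + a.2.natAbs) ha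
    rw [Int.abs_eq_natAbs, Int.abs_eq_natAbs]
    constructor <;> omega
  have hb0 : (b : ℤ) ≠ 0 := by positivity
  set d₁ : ℝ := ((P.image fun w => w.1 - 1 * w.2).card : ℝ) with hd₁
  set d₂ : ℝ := ((P.image fun w => w.1 - 2 * w.2).card : ℝ) with hd₂
  set d₃ : ℝ := ((P.image fun w => w.1 - 3 * w.2).card : ℝ) with hd₃
  have hd₁0 : 0 ≤ d₁ := Nat.cast_nonneg _
  have hd₂0 : 0 ≤ d₂ := Nat.cast_nonneg _
  have hd₃0 : 0 ≤ d₃ := Nat.cast_nonneg _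
  have hA0 : (0 : ℝ) ≤ (P.card : ℝ) := Nat.cast_nonneg _
  have hb1 : (1 : ℝ) ≤ (b : ℝ) := by exact_mod_cast (by omega : 1 ≤ b)
  apply no_geometric_bound (a := (P.card : ℝ) ^ (1 / r))
    (δ := (b : ℝ) * d₁ ^ (1 / p₁) * d₂ ^ (1 / p₂) * d₃ ^ (1 / p₃))
    (K := 8 ^ (1 / r) * (8 * (4 * (c : ℝ) + 3)) * max C 0) (by positivity) hgain
  intro n
  obtain ⟨hi, hcard⟩ := digitSet_inj_card hb0 hinj n
  have hbd : ∀ w ∈ digitSet P (b : ℤ) n,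
      |w.1| ≤ ((c * b ^ n : ℕ) : ℤ) ∧ |w.2| ≤ ((c * b ^ n : ℕ) : ℤ) := by
    intro w hw
    obtain ⟨h1, h2⟩ := digitSet_bound c b hb rfl hcb n w hw
    push_cast
    constructor <;> omega
  have h := key_ineq hp₁ hp₂ hp₃ hr hC (digitSet P (b : ℤ) n) hi (c * b ^ n) hbd
  have h' := ennreal_to_real (by positivity) (by positivity) (by positivity) (by positivity)
    (by positivity) h
  rw [hcard] at h'
  -- upper bounds for the projections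
  have q₁ : (((digitSet P (b : ℤ) n).image fun w => w.1 - 1 * w.2).card : ℝ) ^ (1 / p₁)
      ≤ (d₁ ^ (1 / p₁)) ^ n := by
    rw [← pow_rpow_comm' hd₁0]
    apply Real.rpow_le_rpow (Nat.cast_nonneg _) _ (by positivity)
    rw [hd₁]
    exact_mod_cast digitSet_proj_card (P := P) (B := (b : ℤ)) 1 n
  have q₂ : (((digitSet P (b : ℤ) n).image fun w => w.1 - 2 * w.2).card : ℝ) ^ (1 / p₂)
      ≤ (d₂ ^ (1 / p₂)) ^ n := by
    rw [← pow_rpow_comm' hd₂0]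
    apply Real.rpow_le_rpow (Nat.cast_nonneg _) _ (by positivity)
    rw [hd₂]
    exact_mod_cast digitSet_proj_card (P := P) (B := (b : ℤ)) 2 n
  have q₃ : (((digitSet P (b : ℤ) n).image fun w => w.1 - 3 * w.2).card : ℝ) ^ (1 / p₃)
      ≤ (d₃ ^ (1 / p₃)) ^ n := by
    rw [← pow_rpow_comm' hd₃0]
    apply Real.rpow_le_rpow (Nat.cast_nonneg _) _ (by positivity)
    rw [hd₃]
    exact_mod_cast digitSet_proj_card (P := P) (B := (b : ℤ)) 3 n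
  have h2 : 1 / (8 * (4 * ((c * b ^ n : ℕ) : ℝ) + 3)) * (((P.card ^ n : ℕ) : ℝ) / 8) ^ (1 / r) ≤
      max C 0 * (d₁ ^ (1 / p₁)) ^ n * (d₂ ^ (1 / p₂)) ^ n * (d₃ ^ (1 / p₃)) ^ n := by
    refine h'.trans ?_
    have : 0 ≤ max C 0 := le_max_right _ _
    gcongr
  have e1 : (((P.card ^ n : ℕ) : ℝ) / 8) ^ (1 / r) = ((P.card : ℝ) ^ (1 / r)) ^ n / 8 ^ (1 / r) := by
    push_cast
    rw [Real.div_rpow (by positivity) (by norm_num), pow_rpow_comm' hA0]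
  rw [e1] at h2
  have hbn : (1 : ℝ) ≤ (b : ℝ) ^ n := one_le_pow₀ hb1
  have hden : 8 * (4 * ((c * b ^ n : ℕ) : ℝ) + 3) ≤ 8 * (4 * (c : ℝ) + 3) * (b : ℝ) ^ n := by
    push_cast
    nlinarith
  have hpos : (0 : ℝ) < 8 * (4 * ((c * b ^ n : ℕ) : ℝ) + 3) := by positivity
  have h8 : (0 : ℝ) < 8 ^ (1 / r) := by positivity
  set a : ℝ := (P.card : ℝ) ^ (1 / r) with ha
  set R : ℝ := max C 0 * (d₁ ^ (1 / p₁)) ^ n * (d₂ ^ (1 / p₂)) ^ n * (d₃ ^ (1 / p₃)) ^ n with hR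
  have hR0 : 0 ≤ R := by
    have : 0 ≤ max C 0 := le_max_right _ _
    positivity
  have h3 : a ^ n ≤ 8 ^ (1 / r) * (8 * (4 * ((c * b ^ n : ℕ) : ℝ) + 3)) * R := by
    have : 1 / (8 * (4 * ((c * b ^ n : ℕ) : ℝ) + 3)) * (a ^ n / 8 ^ (1 / r))
        = a ^ n / (8 ^ (1 / r) * (8 * (4 * ((c * b ^ n : ℕ) : ℝ) + 3))) := by
      field_simp
    rw [this, div_le_iff₀ (by positivity)] at h2
    linarith
  calc a ^ n ≤ 8 ^ (1 / r) * (8 * (4 * ((c * b ^ n : ℕ) : ℝ) + 3)) * R := h3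
    _ ≤ 8 ^ (1 / r) * (8 * (4 * (c : ℝ) + 3) * (b : ℝ) ^ n) * R := by gcongr
    _ = 8 ^ (1 / r) * (8 * (4 * (c : ℝ) + 3)) * max C 0 *
        ((b : ℝ) * d₁ ^ (1 / p₁) * d₂ ^ (1 / p₂) * d₃ ^ (1 / p₃)) ^ n := by
      rw [hR, mul_pow, mul_pow, mul_pow]
      ring

end Vale.Agent.P141
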