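import Mathlib

namespace Vale.Agent.P141

open MeasureTheory Filter Topology

/-- The truncated trilinear Hilbert transform with slopes `1, 2, 3`:
the integral of `f₁ (x - t) f₂ (x - 2 t) f₃ (x - 3 t) / t` over `ε < |t| < R`. -/
noncomputable def truncTHT (f₁ f₂ f₃ : ℝ → ℂ) (ε R x : ℝ) : ℂ :=
  ∫ t in {t : ℝ | ε < |t| ∧ |t| < R}, f₁ (x - t) * f₂ (x - 2 * t) * f₃ (x - 3 * t) / (t : ℂ)

/-- The trilinear Hilbert transform: the principal value, i.e. the limit of the truncations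
as `ε → 0+` and `R → ∞`. -/
noncomputable def THT (f₁ f₂ f₃ : ℝ → ℂ) (x : ℝ) : ℂ :=
  limUnder ((𝓝[>] (0 : ℝ)) ×ˢ (atTop : Filter ℝ))
    fun q : ℝ × ℝ => truncTHT f₁ f₂ f₃ q.1 q.2 x

/-- `T` is bounded at the tuple `(p₁, p₂, p₃, r)` of finite exponents: there is a finite constant
`C` with `‖T(f₁,f₂,f₃)‖_r ≤ C ‖f₁‖_{p₁} ‖f₂‖_{p₂} ‖f₃‖_{p₃}` for all Schwartz functions. -/
def BoundedAt (p₁ p₂ p₃ r : ℝ) : Prop :=
  ∃ C : ℝ, ∀ f₁ f₂ f₃ : SchwartzMap ℝ ℂ,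
    eLpNorm (THT f₁ f₂ f₃) (ENNReal.ofReal r) volume ≤
      ENNReal.ofReal C * eLpNorm f₁ (ENNReal.ofReal p₁) volume *
        eLpNorm f₂ (ENNReal.ofReal p₂) volume * eLpNorm f₃ (ENNReal.ofReal p₃) volume

end Vale.Agent.P141
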