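import Vale.Agent.P141.Explicit

namespace Vale.Agent.P141

lemma log_fact2 : 3 * Real.log 2 < 5 * Real.log (8 / 5) := by
  have h : Real.log ((2 : ℝ) ^ 3) < Real.log (((8 : ℝ) / 5) ^ 5) :=
    Real.log_lt_log (by positivity) (by norm_num)
  rw [Real.log_pow, Real.log_pow] at h
  push_cast at h
  linarith

theorem every_r {r : ℝ} (h1 : 1 / 3 < r) (h2 : r < 1 / 2) :
    ∃ p₁ p₂ p₃ : ℝ, 1 < p₁ ∧ 1 < p₂ ∧ 1 < p₃ ∧ 1 / r = 1 / p₁ + 1 / p₂ + 1 / p₃ ∧
      ¬ BoundedAt p₁ p₂ p₃ r := by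
  have hr : 0 < r := by linarith
  rcases le_or_gt r (7 / 16) with hs | hs
  · have hp : 1 < 3 * r := by linarith
    have hH : 1 / r = 1 / (3 * r) + 1 / (3 * r) + 1 / (3 * r) := by field_simp; norm_num
    exact ⟨3 * r, 3 * r, 3 * r, hp, hp, hp, hH, unbounded_small_r hp hp hp hr hH hs⟩
  · set s : ℝ := 1 / r with hsdef
    have s1 : 2 < s := by
      rw [hsdef, lt_div_iff₀ hr]; linarith
    have s2 : s < 16 / 7 := by
      rw [hsdef, div_lt_iff₀ hr]; linarith
    set η : ℝ := 5 / 3 * (s - 2) with hη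
    have η0 : 0 < η := by rw [hη]; linarith
    have η1 : η < 10 / 21 := by rw [hη]; linarith
    have a0 : 0 < 1 - η / 5 := by linarith
    have a1 : 1 - η / 5 < 1 := by linarith
    have q1 : 1 < 1 / (1 - η / 5) := by rw [lt_div_iff₀ a0]; linarith
    have q3 : 1 < 1 / η := by rw [lt_div_iff₀ η0]; linarith
    have hH : s = 1 / (1 / (1 - η / 5)) + 1 / (1 / (1 - η / 5)) + 1 / (1 / η) := by
      rw [one_div_one_div, one_div_one_div, hη]; ring
    refine ⟨1 / (1 - η / 5), 1 / (1 - η / 5), 1 / η, q1, q1, q3, hH, ?_⟩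
    apply unbounded_corner3 q1 q1 q3 hr hH
    rw [one_div_one_div, one_div_one_div, log4]
    have hf := log_fact2
    have l2 : 0 < Real.log 2 := Real.log_pos (by norm_num)
    nlinarith [mul_pos η0 l2, mul_lt_mul_of_pos_left hf η0]

end Vale.Agent.P141
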