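import Vale.Agent.P141.LogForm

namespace Vale.Agent.P141

lemma log4 : Real.log 4 = 2 * Real.log 2 := by
  have : (4 : ℝ) = 2 ^ 2 := by norm_num
  rw [this, Real.log_pow]; norm_num

lemma log8 : Real.log 8 = 3 * Real.log 2 := by
  have : (8 : ℝ) = 2 ^ 3 := by norm_num
  rw [this, Real.log_pow]; norm_num

lemma log14 : Real.log 14 = Real.log 2 + Real.log 7 := by
  have : (14 : ℝ) = 2 * 7 := by norm_num
  rw [this, Real.log_mul (by norm_num) (by norm_num)]

lemma log6 : Real.log 6 = Real.log 2 + Real.log 3 := by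
  have : (6 : ℝ) = 2 * 3 := by norm_num
  rw [this, Real.log_mul (by norm_num) (by norm_num)]

lemma log_fact : 7 * Real.log 5 + 9 * Real.log 2 < 9 * Real.log 7 := by
  have h : Real.log ((5 : ℝ) ^ 7 * 2 ^ 9) < Real.log ((7 : ℝ) ^ 9) :=
    Real.log_lt_log (by positivity) (by norm_num)
  rw [Real.log_mul (by positivity) (by positivity), Real.log_pow, Real.log_pow, Real.log_pow] at h
  push_cast at h
  linarith

theorem unbounded_small_r {p₁ p₂ p₃ r : ℝ} (hp₁ : 1 < p₁) (hp₂ : 1 < p₂) (hp₃ : 1 < p₃)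
    (hr : 0 < r) (hH : 1 / r = 1 / p₁ + 1 / p₂ + 1 / p₃) (hsmall : r ≤ 7 / 16) :
    ¬ BoundedAt p₁ p₂ p₃ r := by
  apply criterion_log P14 14 (by norm_num) P14_inj 14 4 4 5 P14_card P14_d1 P14_d2 P14_d3
    (by norm_num) (by norm_num) (by norm_num) (by norm_num) (by linarith) (by linarith)
    (by linarith) hr
  push_cast
  rw [log14, log4, hH]
  have hs : 16 / 7 ≤ 1 / p₁ + 1 / p₂ + 1 / p₃ := by
    rw [← hH, le_div_iff₀ hr]
    linarith
  have t₃ : 1 / p₃ < 1 := by rw [div_lt_one (by linarith)]; exact hp₃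
  set a := 1 / p₁
  set b := 1 / p₂
  set c := 1 / p₃
  have l2 : 0 < Real.log 2 := Real.log_pos (by norm_num)
  have l25 : 2 * Real.log 2 < Real.log 5 := by
    rw [← log4]; exact Real.log_lt_log (by norm_num) (by norm_num)
  have l27 : Real.log 2 < Real.log 7 := Real.log_lt_log (by norm_num) (by norm_num)
  have hf := log_fact
  have h1 : 0 ≤ (Real.log 7 - Real.log 2) * (a + b + c - 16 / 7) :=
    mul_nonneg (by linarith) (by linarith)
  have h2 : 0 < (Real.log 5 - 2 * Real.log 2) * (1 - c) := mul_pos (by linarith) (by linarith)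
  nlinarith [h1, h2, hf]

theorem unbounded_corner3 {p₁ p₂ p₃ r : ℝ} (hp₁ : 1 < p₁) (hp₂ : 1 < p₂) (hp₃ : 1 < p₃)
    (hr : 0 < r) (hH : 1 / r = 1 / p₁ + 1 / p₂ + 1 / p₃)
    (hc : (1 - 1 / p₁) * Real.log 4 + (1 - 1 / p₂) * Real.log 2 < (1 / p₃) * Real.log (8 / 5)) :
    ¬ BoundedAt p₁ p₂ p₃ r := by
  apply criterion_log P8a 8 (by norm_num) P8a_inj 8 2 4 5 P8a_card P8a_d1 P8a_d2 P8a_d3
    (by norm_num) (by norm_num) (by norm_num) (by norm_num) (by linarith) (by linarith)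
    (by linarith) hr
  push_cast
  rw [Real.log_div (by norm_num) (by norm_num), log8, log4] at hc
  rw [log8, log4, hH]
  nlinarith [hc]

theorem unbounded_corner2 {p₁ p₂ p₃ r : ℝ} (hp₁ : 1 < p₁) (hp₂ : 1 < p₂) (hp₃ : 1 < p₃)
    (hr : 0 < r) (hH : 1 / r = 1 / p₁ + 1 / p₂ + 1 / p₃)
    (hc : (1 - 1 / p₁) * Real.log 3 + (1 - 1 / p₃) * Real.log 2 < (1 / p₂) * Real.log (3 / 2)) :
    ¬ BoundedAt p₁ p₂ p₃ r := by
  apply criterion_log P6 6 (by norm_num) P6_inj 6 2 4 3 P6_card P6_d1 P6_d2 P6_d3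
    (by norm_num) (by norm_num) (by norm_num) (by norm_num) (by linarith) (by linarith)
    (by linarith) hr
  push_cast
  rw [Real.log_div (by norm_num) (by norm_num)] at hc
  rw [log6, log4, hH]
  nlinarith [hc]

theorem unbounded_corner1 {p₁ p₂ p₃ r : ℝ} (hp₁ : 1 < p₁) (hp₂ : 1 < p₂) (hp₃ : 1 < p₃)
    (hr : 0 < r) (hH : 1 / r = 1 / p₁ + 1 / p₂ + 1 / p₃)
    (hc : (1 - 1 / p₂) * Real.log 2 + (1 - 1 / p₃) * Real.log 4 < (1 / p₁) * Real.log (8 / 5)) :
    ¬ BoundedAt p₁ p₂ p₃ r := by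
  apply criterion_log P8b 8 (by norm_num) P8b_inj 8 5 4 2 P8b_card P8b_d1 P8b_d2 P8b_d3
    (by norm_num) (by norm_num) (by norm_num) (by norm_num) (by linarith) (by linarith)
    (by linarith) hr
  push_cast
  rw [Real.log_div (by norm_num) (by norm_num), log8, log4] at hc
  rw [log8, log4, hH]
  nlinarith [hc]

end Vale.Agent.P141
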