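import Vale.Agent.P141.Norms

namespace Vale.Agent.P141

open MeasureTheory Filter Topology Set

/-- the shifted set of centres for the `i`-th function -/
noncomputable def centres (Ω : Finset (ℤ × ℤ)) (i N : ℤ) : Finset ℝ :=
  (Ω.image fun w => w.1 - i * w.2).image fun s : ℤ => ((s - i * N : ℤ) : ℝ)

lemma centres_card_le (Ω : Finset (ℤ × ℤ)) (i N : ℤ) :
    (centres Ω i N).card ≤ (Ω.image fun w => w.1 - i * w.2).card :=
  Finset.card_image_le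

lemma mem_centres {Ω : Finset (ℤ × ℤ)} {i N : ℤ} {w : ℤ × ℤ} (hw : w ∈ Ω) :
    ((w.1 : ℝ) - i * w.2 - i * N) ∈ centres Ω i N := by
  unfold centres
  rw [Finset.mem_image]
  refine ⟨w.1 - i * w.2, Finset.mem_image_of_mem _ hw, ?_⟩
  push_cast
  ring

lemma exists_of_mem_centres {Ω : Finset (ℤ × ℤ)} {i N : ℤ} {s : ℝ} (hs : s ∈ centres Ω i N) :
    ∃ w ∈ Ω, s = (w.1 : ℝ) - i * w.2 - i * N := by
  unfold centres at hs
  rw [Finset.mem_image] at hs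
  obtain ⟨z, hz, rfl⟩ := hs
  rw [Finset.mem_image] at hz
  obtain ⟨w, hw, rfl⟩ := hz
  exact ⟨w, hw, by push_cast; ring⟩

theorem key_ineq {p₁ p₂ p₃ r C : ℝ} (hp₁ : 0 < p₁) (hp₂ : 0 < p₂) (hp₃ : 0 < p₃) (hr : 0 < r)
    (hC : ∀ f₁ f₂ f₃ : SchwartzMap ℝ ℂ,
      eLpNorm (THT f₁ f₂ f₃) (ENNReal.ofReal r) volume ≤
        ENNReal.ofReal C * eLpNorm f₁ (ENNReal.ofReal p₁) volume *
          eLpNorm f₂ (ENNReal.ofReal p₂) volume * eLpNorm f₃ (ENNReal.ofReal p₃) volume)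
    (Ω : Finset (ℤ × ℤ)) (hinj : Set.InjOn Prod.fst (Ω : Set (ℤ × ℤ))) (M : ℕ)
    (hb : ∀ w ∈ Ω, |w.1| ≤ (M : ℤ) ∧ |w.2| ≤ (M : ℤ)) :
    ENNReal.ofReal (1 / (8 * (4 * (M : ℝ) + 3))) * ((Ω.card : ENNReal) / 8) ^ (1 / r) ≤
      ENNReal.ofReal C * ((Ω.image fun w => w.1 - 1 * w.2).card : ENNReal) ^ (1 / p₁) *
        ((Ω.image fun w => w.1 - 2 * w.2).card : ENNReal) ^ (1 / p₂) *
        ((Ω.image fun w => w.1 - 3 * w.2).card : ENNReal) ^ (1 / p₃) := by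
  set N : ℤ := 3 * M + 2 with hN
  have hNr : (N : ℝ) = 3 * M + 2 := by simp [hN]
  obtain ⟨f₁, g₁, e₁, c₁, n₁, u₁, k₁, z₁⟩ := exists_bump (centres Ω 1 N)
  obtain ⟨f₂, g₂, e₂, c₂, n₂, u₂, k₂, z₂⟩ := exists_bump (centres Ω 2 N)
  obtain ⟨f₃, g₃, e₃, c₃, n₃, u₃, k₃, z₃⟩ := exists_bump (centres Ω 3 N)
  have hbr : ∀ w ∈ Ω, |(w.1 : ℝ)| ≤ M ∧ |(w.2 : ℝ)| ≤ M := by
    intro w hw
    obtain ⟨h1, h2⟩ := hb w hw
    constructor
    · have : ((|w.1| : ℤ) : ℝ) ≤ ((M : ℤ) : ℝ) := by exact_mod_cast h1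
      simpa using this
    · have : ((|w.2| : ℤ) : ℝ) ≤ ((M : ℤ) : ℝ) := by exact_mod_cast h2
      simpa using this
  -- the lower bound
  have hlow : ∀ x ∈ (⋃ w ∈ Ω, Icc ((w.1 : ℝ) - 1/16) ((w.1 : ℝ) + 1/16)),
      1 / (8 * (4 * (M : ℝ) + 3)) ≤ ‖THT f₁ f₂ f₃ x‖ := by
    intro x hx
    simp only [mem_iUnion, mem_Icc] at hx
    obtain ⟨w, hw, hx1, hx2⟩ := hx
    obtain ⟨hw1, hw2⟩ := hbr w hw
    rw [abs_le] at hw1 hw2
    have hM0 : (0 : ℝ) ≤ M := Nat.cast_nonneg M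
    have key := THT_lower f₁ f₂ f₃ g₁ g₂ g₃ e₁ e₂ e₃ c₁ c₂ c₃ n₁ n₂ n₃ x 1 (6 * M + 3)
      ((N : ℝ) + w.2 - 1/16) ((N : ℝ) + w.2 + 1/16) one_pos ?_ ?_ ?_ ?_
    · refine le_trans ?_ key
      have hd : (0 : ℝ) < (N : ℝ) + w.2 + 1/16 := by rw [hNr]; linarith [hw2.1]
      have e : ((N : ℝ) + w.2 + 1/16 - ((N : ℝ) + w.2 - 1/16)) = 1 / 8 := by ring
      rw [e, div_div]
      apply one_div_le_one_div_of_le (by positivity)
      rw [hNr]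
      nlinarith [hw2.2]
    · intro t ht
      have hmem : x - t ∈ Uset (centres Ω 1 N) := by
        by_contra h
        exact ht (z₁ _ h)
      simp only [Uset, mem_iUnion, mem_Ioo] at hmem
      obtain ⟨s, hs, hs1, hs2⟩ := hmem
      obtain ⟨w', hw', rfl⟩ := exists_of_mem_centres hs
      obtain ⟨hw1', hw2'⟩ := hbr w' hw'
      rw [abs_le] at hw1' hw2'
      rw [hNr] at hs1 hs2
      push_cast at hs1 hs2
      constructor <;> linarith [hw1'.1, hw1'.2, hw2'.1, hw2'.2, hw1.1, hw1.2]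
    · rw [hNr]; linarith [hw2.1]
    · linarith
    · intro t ht
      rw [mem_Icc] at ht
      refine ⟨k₁ _ ?_, k₂ _ ?_, k₃ _ ?_⟩
      · simp only [Kset, mem_iUnion, mem_Icc]
        refine ⟨_, mem_centres (i := 1) (N := N) hw, ?_, ?_⟩ <;> push_cast <;> linarith [ht.1, ht.2]
      · simp only [Kset, mem_iUnion, mem_Icc]
        refine ⟨_, mem_centres (i := 2) (N := N) hw, ?_, ?_⟩ <;> push_cast <;> linarith [ht.1, ht.2]
      · simp only [Kset, mem_iUnion, mem_Icc]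
        refine ⟨_, mem_centres (i := 3) (N := N) hw, ?_, ?_⟩ <;> push_cast <;> linarith [ht.1, ht.2]
  have hXm : MeasurableSet (⋃ w ∈ Ω, Icc (((w : ℤ × ℤ).1 : ℝ) - 1/16) ((w.1 : ℝ) + 1/16)) :=
    Finset.measurableSet_biUnion _ fun _ _ => measurableSet_Icc
  have h1 := eLpNorm_lower (THT f₁ f₂ f₃) _ hXm _ hlow hr
  rw [volume_Xset Ω hinj] at h1
  refine h1.trans ((hC f₁ f₂ f₃).trans ?_)
  have b₁ : eLpNorm f₁ (ENNReal.ofReal p₁) volume ≤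
      ((Ω.image fun w => w.1 - 1 * w.2).card : ENNReal) ^ (1 / p₁) :=
    (eLpNorm_bump_le _ f₁ g₁ e₁ n₁ u₁ z₁ hp₁).trans
      (ENNReal.rpow_le_rpow (by exact_mod_cast centres_card_le Ω 1 N) (by positivity))
  have b₂ : eLpNorm f₂ (ENNReal.ofReal p₂) volume ≤
      ((Ω.image fun w => w.1 - 2 * w.2).card : ENNReal) ^ (1 / p₂) :=
    (eLpNorm_bump_le _ f₂ g₂ e₂ n₂ u₂ z₂ hp₂).trans
      (ENNReal.rpow_le_rpow (by exact_mod_cast centres_card_le Ω 2 N) (by positivity))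
  have b₃ : eLpNorm f₃ (ENNReal.ofReal p₃) volume ≤
      ((Ω.image fun w => w.1 - 3 * w.2).card : ENNReal) ^ (1 / p₃) :=
    (eLpNorm_bump_le _ f₃ g₃ e₃ n₃ u₃ z₃ hp₃).trans
      (ENNReal.rpow_le_rpow (by exact_mod_cast centres_card_le Ω 3 N) (by positivity))
  gcongr

end Vale.Agent.P141
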