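import Vale.Agent.P141.Configs

namespace Vale.Agent.P141

/-- logarithmic form of the criterion -/
theorem criterion_log (P : Finset (ℤ × ℤ)) (b : ℕ) (hb : 2 ≤ b)
    (hinj : ∀ a ∈ P, ∀ a' ∈ P, (b : ℤ) ∣ a.1 - a'.1 → a = a')
    (n d₁ d₂ d₃ : ℕ) (hn : P.card = n)
    (h₁ : (P.image fun w => w.1 - 1 * w.2).card = d₁)
    (h₂ : (P.image fun w => w.1 - 2 * w.2).card = d₂)
    (h₃ : (P.image fun w => w.1 - 3 * w.2).card = d₃)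
    (hn0 : 0 < n) (hd₁ : 0 < d₁) (hd₂ : 0 < d₂) (hd₃ : 0 < d₃)
    {p₁ p₂ p₃ r : ℝ} (hp₁ : 0 < p₁) (hp₂ : 0 < p₂) (hp₃ : 0 < p₃) (hr : 0 < r)
    (hlog : Real.log b + Real.log d₁ * (1 / p₁) + Real.log d₂ * (1 / p₂) + Real.log d₃ * (1 / p₃)
      < Real.log n * (1 / r)) :
    ¬ BoundedAt p₁ p₂ p₃ r := by
  apply criterion P b hb hinj hp₁ hp₂ hp₃ hr
  rw [hn, h₁, h₂, h₃]
  have hb0 : (0 : ℝ) < (b : ℝ) := by positivity
  have e1 : (0 : ℝ) < (d₁ : ℝ) := by exact_mod_cast hd₁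
  have e2 : (0 : ℝ) < (d₂ : ℝ) := by exact_mod_cast hd₂
  have e3 : (0 : ℝ) < (d₃ : ℝ) := by exact_mod_cast hd₃
  have e0 : (0 : ℝ) < (n : ℝ) := by exact_mod_cast hn0
  rw [Real.rpow_def_of_pos e1, Real.rpow_def_of_pos e2, Real.rpow_def_of_pos e3,
    Real.rpow_def_of_pos e0]
  nth_rewrite 1 [← Real.exp_log hb0]
  rw [← Real.exp_add, ← Real.exp_add, ← Real.exp_add]
  exact Real.exp_lt_exp.2 hlog

end Vale.Agent.P141
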