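import Vale.Agent.P141.Pointwise

namespace Vale.Agent.P141

open MeasureTheory Filter Topology Set

lemma eLpNorm_bump_le (S : Finset ℝ) (f : ℝ → ℂ) (g : ℝ → ℝ) (hfg : ∀ x, f x = (g x : ℂ))
    (h0 : ∀ x, 0 ≤ g x) (h1 : ∀ x, g x ≤ 1) (hU : ∀ x, x ∉ Uset S → g x = 0) {p : ℝ} (hp : 0 < p) :
    eLpNorm f (ENNReal.ofReal p) volume ≤ (S.card : ENNReal) ^ (1 / p) := by
  have hsupp : Function.support f ⊆ Uset S := by
    intro x hx
    by_contra h
    apply hx
    simp [hfg, hU x h]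
  rw [← eLpNorm_restrict_eq_of_support_subset hsupp]
  have hb : ∀ᵐ x ∂(volume.restrict (Uset S)), ‖f x‖ ≤ 1 := by
    refine Eventually.of_forall fun x => ?_
    rw [hfg, Complex.norm_real, Real.norm_eq_abs, abs_of_nonneg (h0 x)]
    exact h1 x
  refine (eLpNorm_le_of_ae_bound hb).trans ?_
  rw [ENNReal.ofReal_one, mul_one, Measure.restrict_apply_univ, ENNReal.toReal_ofReal hp.le,
    one_div]
  exact ENNReal.rpow_le_rpow (Uset_volume_le S) (inv_nonneg.2 hp.le)

lemma eLpNorm_lower (h : ℝ → ℂ) (X : Set ℝ) (hX : MeasurableSet X) (c : ℝ)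
    (hc : ∀ x ∈ X, c ≤ ‖h x‖) {r : ℝ} (hr : 0 < r) :
    ENNReal.ofReal c * (volume X) ^ (1 / r) ≤ eLpNorm h (ENNReal.ofReal r) volume := by
  have hr0 : ENNReal.ofReal r ≠ 0 := by simpa using hr
  rw [eLpNorm_eq_lintegral_rpow_enorm_toReal hr0 ENNReal.ofReal_ne_top,
    ENNReal.toReal_ofReal hr.le]
  have h1 : (ENNReal.ofReal c) ^ r * volume X ≤ ∫⁻ x, ‖h x‖ₑ ^ r := by
    calc (ENNReal.ofReal c) ^ r * volume X
        = ∫⁻ x, X.indicator (fun _ => (ENNReal.ofReal c) ^ r) x := by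
          rw [lintegral_indicator_const hX]
      _ ≤ ∫⁻ x, ‖h x‖ₑ ^ r := by
          apply lintegral_mono
          intro x
          by_cases hx : x ∈ X
          · simp only [indicator_of_mem hx]
            apply ENNReal.rpow_le_rpow _ hr.le
            rw [← ofReal_norm_eq_enorm]
            exact ENNReal.ofReal_le_ofReal (hc x hx)
          · simp [indicator_of_notMem hx]
  calc ENNReal.ofReal c * (volume X) ^ (1 / r)
      = ((ENNReal.ofReal c) ^ r * volume X) ^ (1 / r) := by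
        rw [ENNReal.mul_rpow_of_nonneg _ _ (by positivity), ← ENNReal.rpow_mul,
          mul_one_div_cancel hr.ne', ENNReal.rpow_one]
    _ ≤ (∫⁻ x, ‖h x‖ₑ ^ r) ^ (1 / r) := ENNReal.rpow_le_rpow h1 (by positivity)

/-- measure of a union of short intervals centred at distinct integers -/
lemma volume_Xset (Ω : Finset (ℤ × ℤ)) (hinj : Set.InjOn Prod.fst (Ω : Set (ℤ × ℤ))) :
    volume (⋃ w ∈ Ω, Icc ((w.1 : ℝ) - 1/16) ((w.1 : ℝ) + 1/16)) = (Ω.card : ENNReal) / 8 := by
  rw [measure_biUnion_finset]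
  · have : ∀ w ∈ Ω, volume (Icc (((w : ℤ × ℤ).1 : ℝ) - 1/16) ((w.1 : ℝ) + 1/16))
        = (1 / 8 : ENNReal) := by
      intro w _
      rw [Real.volume_Icc]
      have : (w.1 : ℝ) + 1/16 - ((w.1 : ℝ) - 1/16) = 1 / 8 := by ring
      rw [this, ENNReal.ofReal_div_of_pos (by norm_num)]
      simp
    rw [Finset.sum_congr rfl this]
    simp [div_eq_mul_inv]
  · intro w hw w' hw' hne
    have hne1 : w.1 ≠ w'.1 := fun h => hne (hinj hw hw' h)
    simp only [Function.onFun]
    rw [Set.disjoint_left]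
    intro x hx hx'
    simp only [mem_Icc] at hx hx'
    have h1 : |((w.1 : ℝ) - (w'.1 : ℝ))| < 1 := by
      rw [abs_lt]; constructor <;> linarith [hx.1, hx.2, hx'.1, hx'.2]
    have h2 : |w.1 - w'.1| < 1 := by
      have : ((|w.1 - w'.1| : ℤ) : ℝ) < 1 := by push_cast; exact h1
      exact_mod_cast this
    have h3 : w.1 - w'.1 = 0 := Int.abs_lt_one_iff.1 h2
    exact hne1 (by omega)
  · intro w _
    exact measurableSet_Icc

end Vale.Agent.P141
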