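import Vale.Agent.P141.Bump

namespace Vale.Agent.P141

open MeasureTheory Filter Topology Set

/-- Pointwise lower bound for the trilinear Hilbert transform of nonnegative functions, at a point
`x` lying to the right of the support of the first function. -/
lemma THT_lower (f₁ f₂ f₃ : ℝ → ℂ) (g₁ g₂ g₃ : ℝ → ℝ)
    (h₁ : ∀ x, f₁ x = (g₁ x : ℂ)) (h₂ : ∀ x, f₂ x = (g₂ x : ℂ)) (h₃ : ∀ x, f₃ x = (g₃ x : ℂ))
    (c₁ : Continuous g₁) (c₂ : Continuous g₂) (c₃ : Continuous g₃)
    (n₁ : ∀ x, 0 ≤ g₁ x) (n₂ : ∀ x, 0 ≤ g₂ x) (n₃ : ∀ x, 0 ≤ g₃ x)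
    (x a b c d : ℝ) (ha : 0 < a)
    (hsupp : ∀ t, g₁ (x - t) ≠ 0 → a ≤ t ∧ t ≤ b)
    (hc : 0 < c) (hcd : c ≤ d)
    (hone : ∀ t ∈ Icc c d, g₁ (x - t) = 1 ∧ g₂ (x - 2 * t) = 1 ∧ g₃ (x - 3 * t) = 1) :
    (d - c) / d ≤ ‖THT f₁ f₂ f₃ x‖ := by
  set G : ℝ → ℝ := fun t => g₁ (x - t) * g₂ (x - 2 * t) * g₃ (x - 3 * t) with hG
  set F : ℝ → ℝ := fun t => G t / t with hF
  have hGc : Continuous G := by
    apply Continuous.mul
    · apply Continuous.mul
      · exact c₁.comp (by fun_prop)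
      · exact c₂.comp (by fun_prop)
    · exact c₃.comp (by fun_prop)
  have hG0 : ∀ t, ¬ (a ≤ t ∧ t ≤ b) → G t = 0 := by
    intro t ht
    have : g₁ (x - t) = 0 := by
      by_contra h
      exact ht (hsupp t h)
    simp [hG, this]
  have hGn : ∀ t, 0 ≤ G t := fun t => mul_nonneg (mul_nonneg (n₁ _) (n₂ _)) (n₃ _)
  have hFeq : F = fun t => G t / max t a := by
    funext t
    by_cases ht : a ≤ t
    · simp [hF, max_eq_left ht]
    · have : G t = 0 := hG0 t (fun h => ht h.1)
      simp [hF, this]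
  have hFc : Continuous F := by
    rw [hFeq]
    exact hGc.div (by fun_prop) (fun t => (lt_max_of_lt_right ha).ne')
  have hF0 : ∀ t, ¬ (a ≤ t ∧ t ≤ b) → F t = 0 := by
    intro t ht
    simp [hF, hG0 t ht]
  have hFn : ∀ t, 0 ≤ F t := by
    intro t
    by_cases ht : a ≤ t ∧ t ≤ b
    · exact div_nonneg (hGn t) (ha.le.trans ht.1)
    · rw [hF0 t ht]
  have hFs : HasCompactSupport F := by
    apply HasCompactSupport.of_support_subset_isCompact (K := Icc a b) isCompact_Icc
    intro t ht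
    by_contra h
    exact ht (hF0 t h)
  have hFi : Integrable F := hFc.integrable_of_hasCompactSupport hFs
  -- lower bound of the integral
  have hlow : (d - c) / d ≤ ∫ t, F t := by
    have hd : 0 < d := hc.trans_le hcd
    calc (d - c) / d = ∫ _t in Icc c d, (1 / d) := by
          rw [setIntegral_const]
          simp [Real.volume_real_Icc, hcd]
          field_simp
      _ ≤ ∫ t in Icc c d, F t := by
          apply setIntegral_mono_on (by simp) hFi.integrableOn measurableSet_Icc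
          intro t ht
          obtain ⟨e1, e2, e3⟩ := hone t ht
          have : F t = 1 / t := by simp [hF, hG, e1, e2, e3]
          rw [this]
          exact one_div_le_one_div_of_le (hc.trans_le ht.1) ht.2
      _ ≤ ∫ t, F t := setIntegral_le_integral hFi (Eventually.of_forall hFn)
  -- truncations are eventually constant
  have htr : ∀ ε R : ℝ, ε < a → b < R → truncTHT f₁ f₂ f₃ ε R x = ((∫ t, F t : ℝ) : ℂ) := by
    intro ε R hε hR
    unfold truncTHT
    have e1 : ∀ t : ℝ, f₁ (x - t) * f₂ (x - 2 * t) * f₃ (x - 3 * t) / (t : ℂ) = ((F t : ℝ) : ℂ) := by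
      intro t
      simp [hF, hG, h₁, h₂, h₃]
    simp_rw [e1]
    rw [setIntegral_eq_integral_of_forall_compl_eq_zero]
    · exact integral_ofReal
    intro t ht
    have : ¬ (a ≤ t ∧ t ≤ b) := by
      intro h
      apply ht
      have h0 : 0 ≤ t := ha.le.trans h.1
      simp only [mem_setOf_eq, abs_of_nonneg h0]
      exact ⟨hε.trans_le h.1, h.2.trans_lt hR⟩
    simp [hF0 t this]
  have hlim : THT f₁ f₂ f₃ x = ((∫ t, F t : ℝ) : ℂ) := by
    unfold THT
    apply Tendsto.limUnder_eq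
    apply tendsto_const_nhds.congr'
    have hev1 : ∀ᶠ ε in 𝓝[>] (0 : ℝ), ε < a :=
      mem_nhdsWithin_of_mem_nhds (Iio_mem_nhds ha)
    have hev2 : ∀ᶠ R in (atTop : Filter ℝ), b < R := eventually_gt_atTop b
    filter_upwards [hev1.prod_mk hev2] with q hq
    exact (htr q.1 q.2 hq.1 hq.2).symm
  rw [hlim, Complex.norm_real, Real.norm_eq_abs]
  exact hlow.trans (le_abs_self _)

end Vale.Agent.P141
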